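import Vale.Agent.P091.AD.H279.Exc

/-!
# P091, block AD, row AD-6 (helper279): `Window`, (4.1) + (4.2) of note #10233
-/

set_option autoImplicit false

open Finset Real
open Vale.Agent.P065.Ent

noncomputable section

namespace Vale.Agent.P091.AD.H279

section win

variable {p w f : ℕ} {L : Type*}

/-- the window `[f, f + w)` -/
def emb (hf : f + w ≤ p) : Fin w ↪ Fin p where
  toFun i := ⟨f + i, by omega⟩
  inj' := fun i j h => by
    have := congrArg Fin.val h
    simp only at this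
    exact Fin.ext (by omega)

lemma emb_val (hf : f + w ≤ p) (i : Fin w) : (emb hf i).val = f + i.val := rfl

/-- the letters of the window -/
def win (hf : f + w ≤ p) (u : Fin p → L) : Fin w → L := fun i => u (emb hf i)

/-- the positions of the window -/
def WS (hf : f + w ≤ p) : Finset (Fin p) := univ.map (emb hf)

/-- the positions after the window -/
def FS (p f w : ℕ) : Finset (Fin p) := univ.filter fun i => f + w ≤ i.val

lemma mem_WS (hf : f + w ≤ p) (i : Fin p) : i ∈ WS hf ↔ f ≤ i.val ∧ i.val < f + w := by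
  unfold WS
  rw [mem_map]
  constructor
  · rintro ⟨j, _, rfl⟩
    rw [emb_val]
    omega
  · rintro ⟨h1, h2⟩
    refine ⟨⟨i.val - f, by omega⟩, mem_univ _, ?_⟩
    refine Fin.ext ?_
    rw [emb_val]
    simp only
    omega

lemma mem_first {n k : ℕ} (i : Fin n) : i ∈ first n k ↔ i.val < k := by simp [first]

lemma mem_FS (i : Fin p) : i ∈ FS p f w ↔ f + w ≤ i.val := by simp [FS]

lemma det_win (hf : f + w ≤ p) : Det (rs (L := L) (WS hf)) (win hf) := by
  intro u v h
  funext i
  exact rs_apply h (by rw [WS]; exact mem_map_of_mem _ (mem_univ i))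

lemma det_win' (hf : f + w ≤ p) : Det (win (L := L) hf) (rs (WS hf)) := by
  intro u v h
  refine rs_ext fun i hi => ?_
  rw [WS, mem_map] at hi
  obtain ⟨j, _, rfl⟩ := hi
  exact congrFun h j

lemma union1 (hf : f + w ≤ p) : WS hf ∪ first p f = first p (f + w) := by
  ext i
  rw [mem_union, mem_WS, mem_first, mem_first]
  omega

lemma union2 (hf : f + w ≤ p) : WS hf ∪ (FS p f w ∪ first p f) = univ := by
  ext i
  rw [mem_union, mem_union, mem_WS, mem_first, mem_FS]
  simp only [mem_univ, iff_true]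
  omega

lemma disj2 (hf : f + w ≤ p) : Disjoint (WS hf) (FS p f w ∪ first p f) := by
  rw [Finset.disjoint_left]
  intro i hi
  rw [mem_union, mem_first, mem_FS]
  rw [mem_WS] at hi
  omega

lemma card_WS (hf : f + w ≤ p) : (WS hf).card = w := by
  unfold WS
  rw [card_map, card_univ, Fintype.card_fin]

lemma card2 (hf : f + w ≤ p) : (FS p f w ∪ first p f).card = p - w := by
  have h := card_union_of_disjoint (disj2 hf)
  rw [union2, card_univ, Fintype.card_fin, card_WS] at h
  omega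

variable [Fintype L] {Q : (Fin p → L) → ℝ}

lemma Hc_win_past (hf : f + w ≤ p) :
    Hc Q (win hf) (rs (first p f)) = g Q (f + w) - g Q f := by
  rw [Hc_congr (det_win' hf) (det_win hf) (Det.refl (rs (L := L) (first p f))) (Det.refl _),
    Hc_rs, union1]
  rfl

lemma Hc_win_all (hE : Exch Q) (hf : f + w ≤ p) :
    Hc Q (win hf) (fun u => (rs (FS p f w) u, rs (first p f) u)) = g Q p - g Q (p - w) := by
  have h1 : Hc Q (win hf) (fun u => (rs (FS p f w) u, rs (first p f) u)) =
      Hc Q (rs (WS hf)) (rs (FS p f w ∪ first p f)) := by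
    refine Hc_congr (det_win' hf) (det_win hf) (det_rs_union _ _) ?_
    exact (det_rs subset_union_left).pair (det_rs subset_union_right)
  rw [h1, Hc_rs, union2, gE_eq hE, gE_eq hE, card2 hf, card_univ, Fintype.card_fin]

lemma Hc_letter_past (hE : Exch Q) (hf : f + w ≤ p) (i : Fin w) :
    Hc Q (fun u => win hf u i) (rs (first p f)) = g Q (f + 1) - g Q f := by
  have h1 : Hc Q (fun u => win hf u i) (rs (first p f)) =
      Hc Q (rs {emb hf i}) (rs (first p f)) := by
    refine Hc_congr ?_ ?_ (Det.refl _) (Det.refl _)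
    · intro u v h
      refine rs_ext fun j hj => ?_
      rw [mem_singleton] at hj
      rw [hj]; exact h
    · intro u v h
      exact rs_apply h (mem_singleton_self _)
  have hi := i.2
  rw [h1, Hc_rs, gE_eq hE, gE_eq hE, card_union_of_disjoint, card_singleton,
    card_first (by omega), add_comm 1 f]
  rw [disjoint_singleton_left, mem_first, emb_val]
  omega

/-- (4.1) -/
lemma window_entropy {Γ Z : Type*} [AddCommGroup Γ] (hQ : IsProb Q) (hE : Exch Q)
    (hf : f + w ≤ p) (N : L → Γ) (zl : L → Z) :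
    Hc Q (fun u => SW N univ (win hf u)) (fun u => (LW zl univ (win hf u), rs (first p f) u)) ≤
      Hc Q (sm N) (lb zl) + ((g Q (f + w) - g Q f) - (g Q p - g Q (p - w))) := by
  classical
  set A : (Fin p → L) → Γ := fun u => SW N univ (win hf u) with hA
  set Bl : (Fin p → L) → (Fin w → Option Z) := fun u => LW zl univ (win hf u) with hBl
  set Pa : (Fin p → L) → _ := rs (first p f) with hPa
  set Fu : (Fin p → L) → _ := rs (FS p f w) with hFu
  have hlab : ∀ u v : Fin p → L, Bl u = Bl v → ∀ i : Fin w, zl (win hf u i) = zl (win hf v i) := by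
    intro u v h i
    have h1 := congrFun h i
    simpa [hBl, LW] using h1
  have h1 : Hc Q (sm N) (fun u => (Bl u, (Fu u, Pa u))) ≤ Hc Q (sm N) (lb zl) := by
    refine Hc_anti hQ _ ?_
    intro u v h
    have e1 := (Prod.mk.inj h).1
    have e2 := (Prod.mk.inj (Prod.mk.inj h).2).1
    have e3 := (Prod.mk.inj (Prod.mk.inj h).2).2
    funext i
    unfold lb
    by_cases c1 : i.val < f
    · rw [rs_apply e3 ((mem_first i).mpr c1)]
    · by_cases c2 : i.val < f + w
      · have hi : i ∈ WS hf := (mem_WS hf i).mpr ⟨by omega, c2⟩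
        rw [WS, mem_map] at hi
        obtain ⟨j, _, rfl⟩ := hi
        exact hlab u v e1 j
      · rw [rs_apply e2 ((mem_FS i).mpr (by omega))]
  have h2 : Hc Q A (fun u => (Bl u, (Fu u, Pa u))) ≤ Hc Q (sm N) (fun u => (Bl u, (Fu u, Pa u))) := by
    refine Hc_mono_left' hQ ?_
    intro u v h
    have e0 := (Prod.mk.inj h).1
    have h' := (Prod.mk.inj h).2
    have e2 := (Prod.mk.inj (Prod.mk.inj h').2).1
    have e3 := (Prod.mk.inj (Prod.mk.inj h').2).2
    have key : ∀ u : Fin p → L, A u = sm N u - ∑ i ∈ (WS hf)ᶜ, N (u i) := by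
      intro u
      have h3 : sm N u = ∑ i ∈ WS hf, N (u i) + ∑ i ∈ (WS hf)ᶜ, N (u i) := by
        unfold sm
        exact (sum_add_sum_compl _ _).symm
      have h4 : ∑ i ∈ WS hf, N (u i) = A u := by
        rw [hA]
        unfold WS SW win
        rw [sum_map]
      rw [h3, h4, add_sub_cancel_right]
    rw [key u, key v, e0]
    congr 1
    refine sum_congr rfl fun i hi => ?_
    rw [mem_compl, mem_WS] at hi
    by_cases c1 : i.val < f
    · rw [rs_apply e3 ((mem_first i).mpr c1)]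
    · rw [rs_apply e2 ((mem_FS i).mpr (by omega))]
  have h3 := I_chain Q Fu A Bl Pa
  have h4 : I Q Fu (fun u => (A u, Bl u)) Pa ≤ I Q Fu (win hf) Pa := by
    refine I_mono_right hQ _ _ ?_
    intro u v h
    simp only [hA, hBl, h]
  have h5 := I_symm Q Fu (win hf) Pa
  have h6 : I Q (win hf) Fu Pa = (g Q (f + w) - g Q f) - (g Q p - g Q (p - w)) := by
    rw [← Hc_win_past hf, ← Hc_win_all hE hf]
    rfl
  have h7 := I_symm Q Fu A (fun u => (Bl u, Pa u))
  have h8 : I Q A Fu (fun u => (Bl u, Pa u)) =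
      Hc Q A (fun u => (Bl u, Pa u)) - Hc Q A (fun u => (Bl u, (Fu u, Pa u))) := by
    unfold I
    congr 1
    refine Hc_congr (Det.refl A) (Det.refl A) ?_ ?_
    · intro u v h
      have e1 := (Prod.mk.inj h).1
      have e2 := (Prod.mk.inj (Prod.mk.inj h).2).1
      have e3 := (Prod.mk.inj (Prod.mk.inj h).2).2
      simp only [e1, e2, e3]
    · intro u v h
      have e1 := (Prod.mk.inj h).1
      have e2 := (Prod.mk.inj (Prod.mk.inj h).2).1
      have e3 := (Prod.mk.inj (Prod.mk.inj h).2).2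
      simp only [e1, e2, e3]
  have h9 := I_nonneg hQ Fu Bl Pa
  linarith

/-- the conditional law of the window is exchangeable -/
lemma exch_win (hE : Exch Q) (hf : f + w ≤ p) (x : first p f → L) :
    Exch (Pr (cnd Q (rs (first p f)) x) (win hf)) := by
  classical
  intro σ v
  let τ : Equiv.Perm (Fin p) := σ.viaEmbedding (emb hf)
  have hτ1 : ∀ i, τ (emb hf i) = emb hf (σ i) := fun i =>
    Equiv.Perm.viaEmbedding_apply σ (emb hf) i
  have hτ2 : ∀ i : Fin p, i.val < f → τ i = i := by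
    intro i hi
    refine Equiv.Perm.viaEmbedding_apply_of_notMem σ (emb hf) i ?_
    rintro ⟨j, hj⟩
    rw [← hj, emb_val] at hi
    omega
  have he : ∀ u, cnd Q (rs (first p f)) x (wperm τ u) = cnd Q (rs (first p f)) x u := by
    intro u
    have h1 : rs (first p f) (wperm τ u) = rs (first p f) u := by
      refine rs_ext fun i hi => ?_
      show u (τ i) = u i
      rw [hτ2 i ((mem_first i).mp hi)]
    have h2 : Q (wperm τ u) = Q u := hE τ u
    unfold cnd
    rw [h1, h2]
  rw [← Pr_perm (wperm τ) he (win hf)]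
  unfold Pr
  refine sum_congr rfl fun u _ => ?_
  have h3 : (win hf (wperm τ u) = fun i => v (σ i)) ↔ win hf u = v := by
    have h4 : win hf (wperm τ u) = fun i => win hf u (σ i) := by
      funext i
      show u (τ (emb hf i)) = u (emb hf (σ i))
      rw [hτ1]
    rw [h4]
    constructor
    · intro h
      funext i
      have := congrFun h (σ.symm i)
      simpa using this
    · intro h
      rw [h]
  by_cases h5 : win hf u = v
  · rw [if_pos (h3.mpr h5), if_pos h5]
  · rw [if_neg (fun h => h5 (h3.mp h)), if_neg h5]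

/-! ## Divergences -/

lemma pw_pos {ι : Type*} [Fintype ι] {β : L → ℝ} (hβ : IsProb β) {u : ι → L} (h : 0 < pw β u)
    (i : ι) : 0 < β (u i) := by
  refine (hβ.nonneg _).lt_of_ne fun h0 => h.ne' ?_
  unfold pw
  exact prod_eq_zero (mem_univ i) h0.symm

/-- `D (Q || β^p) = TC Q + ∑ i, D (Q_i || β)` -/
lemma Dv_word {β : L → ℝ} (hβ : IsProb β) (hQ : IsProb Q) (hs : ∀ u, 0 < Q u → 0 < pw β u) :
    Dv Q (fun u => u) (pw β) = TC Q + ∑ i, Dv Q (fun u => u i) β := by
  rw [Dv_eq hQ _ _ hs]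
  have h1 : ∀ i, Dv Q (fun u => u i) β = ∑ u, Q u * (- log (β (u i))) - H Q (fun u => u i) :=
    fun i => Dv_eq hQ _ _ fun u hu => pw_pos hβ (hs u hu) i
  have h2 : ∑ u, Q u * (- log (pw β u)) = ∑ i, ∑ u, Q u * (- log (β (u i))) := by
    rw [sum_comm]
    refine sum_congr rfl fun u _ => ?_
    rcases (hQ.nonneg u).eq_or_lt with h0 | h0
    · simp [← h0]
    · rw [← mul_sum, sum_neg_distrib]
      unfold pw
      rw [log_prod fun i _ => (pw_pos hβ (hs u h0) i).ne']
  rw [sum_congr rfl fun i _ => h1 i, sum_sub_distrib, h2]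
  unfold TC
  ring

lemma Dv_letter (hE : Exch Q) (β : L → ℝ) (i j : Fin p) :
    Dv Q (fun u => u i) β = Dv Q (fun u => u j) β := by
  have h := Dv_perm (wperm (Equiv.swap i j)) (hE (Equiv.swap i j)) (fun u : Fin p → L => u j) β
  rw [← h]
  congr 1
  funext u
  show u i = u (Equiv.swap i j j)
  rw [Equiv.swap_apply_right]

lemma sum_Dv_letter (hE : Exch Q) (β : L → ℝ) (j : Fin p) :
    ∑ i, Dv Q (fun u => u i) β = p * Dv Q (fun u => u j) β := by
  rw [sum_congr rfl fun i _ => Dv_letter hE β i j, sum_const, card_univ, Fintype.card_fin,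
    nsmul_eq_mul]

/-- the choice of the window -/
lemma exists_window (hQ : IsProb Q) (hE : Exch Q) (hw : 1 ≤ w) (hp : 4 * w ≤ p) {D : ℝ}
    (hD : TC Q ≤ D) :
    ∃ f, f + w + 1 ≤ p ∧ dl Q f - dl Q (f + w) ≤ 8 * D * w / p ^ 2 ∧
      dl Q 0 - dl Q f ≤ 2 * D / p := by
  have hp0 : (0 : ℝ) < p := by exact_mod_cast (by omega : 0 < p)
  have hw0 : (0 : ℝ) < w := by exact_mod_cast (by omega : 0 < w)
  have hD0 : 0 ≤ D := (TC_nonneg hQ hE).trans hD
  set m := p / (2 * w) with hm
  have hm1 : 1 ≤ m := by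
    rw [hm, Nat.one_le_div_iff (by omega)]; omega
  have hm2 : m * w * 2 ≤ p := by
    have := Nat.div_mul_le_self p (2 * w)
    calc m * w * 2 = p / (2 * w) * (2 * w) := by rw [hm]; ring
      _ ≤ p := this
  have hm3 : p ≤ 4 * (m * w) := by
    have h1 : p < (m + 1) * (2 * w) := by
      rw [hm]
      have h := Nat.div_add_mod p (2 * w)
      have h' := Nat.mod_lt p (show 0 < 2 * w by omega)
      nlinarith
    have h2 : w ≤ m * w := Nat.le_mul_of_pos_left w hm1
    nlinarith
  have hm0 : (0 : ℝ) < m := by exact_mod_cast hm1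
  have hmw : m * w + 1 ≤ p := by omega
  have hb : dl Q 0 - dl Q (m * w) ≤ 2 * D / p := by
    have h1 := TC_ge hQ hE hmw
    have h2 : 0 ≤ dl Q 0 - dl Q (m * w) := sub_nonneg.mpr (dl_anti hQ hE (Nat.zero_le _) hmw)
    rw [le_div_iff₀ hp0]
    have h3 : (p : ℝ) / 2 ≤ p - (m * w : ℕ) := by
      have : ((m * w * 2 : ℕ) : ℝ) ≤ p := by exact_mod_cast hm2
      push_cast at this ⊢
      linarith
    have h4 := mul_le_mul_of_nonneg_right h3 h2
    linarith
  have htel : ∑ j ∈ range m, (dl Q (j * w) - dl Q ((j + 1) * w)) = dl Q 0 - dl Q (m * w) := by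
    rw [Finset.sum_range_sub' fun j => dl Q (j * w)]
    simp
  obtain ⟨j, hj, hj2⟩ : ∃ j ∈ range m, dl Q (j * w) - dl Q ((j + 1) * w) ≤ 2 * D / p / m := by
    refine exists_le_of_sum_le (s := range m) ⟨0, mem_range.mpr (by omega)⟩ ?_
    rw [htel, sum_const, card_range, nsmul_eq_mul, mul_div_cancel₀ _ hm0.ne']
    exact hb
  rw [mem_range] at hj
  have hjw : (j + 1) * w ≤ m * w := Nat.mul_le_mul_right w hj
  have hjw' : (j + 1) * w = j * w + w := by ring
  refine ⟨j * w, by omega, ?_, ?_⟩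
  · rw [← hjw']
    refine hj2.trans ?_
    have h1 : (p : ℝ) ≤ 4 * (m * w) := by exact_mod_cast hm3
    rw [div_div, div_le_div_iff₀ (by positivity) (by positivity)]
    have h2 : 0 ≤ D * p := by positivity
    nlinarith
  · have h1 : dl Q (m * w) ≤ dl Q (j * w) := dl_anti hQ hE (by omega) hmw
    linarith

end win

/-- **AD-6** -/
theorem window : Window := by
  refine ⟨64, by norm_num, ?_⟩
  intro Γ L Z _ _ N zl β p w Q Θ D0 U hβ hQ hE hs hw hp hU hD hΘ
  classical
  have hp0 : (0 : ℝ) < p := by exact_mod_cast (by omega : 0 < p)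
  have hw0 : (0 : ℝ) < w := by exact_mod_cast (by omega : 0 < w)
  have hU0 : 0 < U := by linarith
  have hsβ : ∀ u, 0 < Q u → ∀ i, 0 < β (u i) := fun u hu i => pw_pos hβ (hs u hu) i
  have hDw := Dv_word hβ hQ hs
  have hd0 : ∀ i, 0 ≤ Dv Q (fun u => u i) β := fun i =>
    Dv_nonneg hQ _ _ (fun u hu => hsβ u hu i) hβ.nonneg hβ.sum.le
  have hTC0 := TC_nonneg hQ hE
  have hTC : TC Q ≤ D0 := by
    have := sum_nonneg fun i (_ : i ∈ (univ : Finset (Fin p))) => hd0 i
    linarith
  have hD00 : 0 ≤ D0 := hTC0.trans hTC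
  obtain ⟨f, hfw, hf1, hf2⟩ := exists_window hQ hE hw hp hTC
  have hf : f + w ≤ p := by omega
  -- the past
  set Pa : (Fin p → L) → (first p f → L) := rs (first p f) with hPa
  let i0 : Fin w := ⟨0, by omega⟩
  set s : Finset (first p f → L) := univ.image Pa with hsdef
  let Qx : (first p f → L) → (Fin w → L) → ℝ := fun x => Pr (cnd Q Pa x) (win hf)
  let f1 : (first p f → L) → ℝ := fun x => hW (Qx x) N zl univ
  let f2 : (first p f → L) → ℝ := fun x => TC (Qx x)
  let f3 : (first p f → L) → ℝ := fun x => Dv (Qx x) (fun u => u i0) β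
  have hQx : ∀ x, 0 < Pr Q Pa x → IsProb (Qx x) := fun x hx =>
    push_isProb (cnd_isProb hQ hx) _
  have hEx : ∀ x, Exch (Qx x) := fun x => exch_win hE hf x
  have hsx : ∀ x, 0 < Pr Q Pa x → ∀ v, 0 < Qx x v → 0 < pw β v := by
    intro x hx v hv
    obtain ⟨u, hu, rfl⟩ := exists_of_Pr_pos (cnd_isProb hQ hx) (win hf) hv
    have hu' : 0 < Q u := by
      unfold cnd at hu
      split_ifs at hu
      · exact (div_pos_iff_of_pos_right hx).mp hu
      · exact absurd hu (lt_irrefl _)
    unfold pw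
    exact prod_pos fun i _ => hsβ u hu' _
  have hTCx : ∀ x, TC (Qx x) = ∑ i, H (cnd Q Pa x) (fun u => win hf u i) -
      H (cnd Q Pa x) (win hf) := by
    intro x
    unfold TC
    simp only [Qx]
    rw [H_push, sum_congr rfl fun i _ => H_push (cnd Q Pa x) (win hf) (fun v => v i)]
  -- the averages
  have hB1 : ∑ x ∈ s, Pr Q Pa x * f1 x ≤ Θ := by
    have h1 : ∑ x ∈ s, Pr Q Pa x * f1 x =
        Hc Q (fun u => SW N univ (win hf u)) (fun u => (LW zl univ (win hf u), Pa u)) := by
      rw [Hc_fiber' hQ]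
      refine sum_congr rfl fun x _ => ?_
      simp only [f1, Qx, hW]
      rw [Hc_push]
    rw [h1]
    have h2 := window_entropy hQ hE hf N zl
    have h3 := g_add_le hQ hE hf
    have h4 := g_le hQ hE (k := p - w) (by omega)
    have h5 : dl Q f ≤ dl Q 0 := dl_anti hQ hE (Nat.zero_le _) (by omega)
    rw [dl_zero hQ] at h5
    have h6 : ((p - w : ℕ) : ℝ) = p - w := by rw [Nat.cast_sub (by omega)]
    rw [h6] at h4
    have h7 := TC_eq hE
    have h8 : (w : ℝ) * dl Q f ≤ w * g Q 1 := mul_le_mul_of_nonneg_left h5 hw0.le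
    have h9 := sum_nonneg fun i (_ : i ∈ (univ : Finset (Fin p))) => hd0 i
    linarith
  have hB2 : ∑ x ∈ s, Pr Q Pa x * f2 x ≤ 8 * D0 * w ^ 2 / p ^ 2 := by
    have h1 : ∑ x ∈ s, Pr Q Pa x * f2 x =
        ∑ i, Hc Q (fun u => win hf u i) Pa - Hc Q (win hf) Pa := by
      rw [Hc_fiber hQ (win hf) Pa, sum_congr rfl fun i _ => Hc_fiber hQ (fun u => win hf u i) Pa,
        sum_comm, ← sum_sub_distrib]
      refine sum_congr rfl fun x _ => ?_
      simp only [f2]
      rw [hTCx, mul_sub, mul_sum]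
    rw [h1, sum_congr rfl fun i _ => Hc_letter_past hE hf i, Hc_win_past hf, sum_const, card_univ,
      Fintype.card_fin, nsmul_eq_mul]
    have h2 := g_add_ge hQ hE (f := f) (w := w) hfw
    have h3 : (w : ℝ) * (dl Q f - dl Q (f + w)) ≤ w * (8 * D0 * w / p ^ 2) :=
      mul_le_mul_of_nonneg_left hf1 hw0.le
    have h4 : (w : ℝ) * (8 * D0 * w / p ^ 2) = 8 * D0 * w ^ 2 / p ^ 2 := by ring
    have h5 : g Q (f + 1) - g Q f = dl Q f := rfl
    rw [h5]
    linarith
  have hB3 : ∑ x ∈ s, Pr Q Pa x * f3 x ≤ 3 * D0 / p := by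
    have h1 : ∀ x, 0 < Pr Q Pa x → f3 x =
        ∑ u, cnd Q Pa x u * (- log (β (win hf u i0))) - H (cnd Q Pa x) (fun u => win hf u i0) := by
      intro x hx
      simp only [f3, Qx]
      rw [Dv_push, Dv_eq (cnd_isProb hQ hx)]
      intro u hu
      have hu' : 0 < Q u := by
        unfold cnd at hu
        split_ifs at hu
        · exact (div_pos_iff_of_pos_right hx).mp hu
        · exact absurd hu (lt_irrefl _)
      exact hsβ u hu' _
    have h2 : ∑ x ∈ s, Pr Q Pa x * f3 x =
        ∑ u, Q u * (- log (β (win hf u i0))) - Hc Q (fun u => win hf u i0) Pa := by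
      rw [Hc_fiber hQ, sum_cnd_fiber hQ Pa (fun _ u => - log (β (win hf u i0))),
        ← sum_sub_distrib]
      refine sum_congr rfl fun x _ => ?_
      rcases (Pr_nonneg hQ Pa x).eq_or_lt with h0 | h0
      · rw [← h0]; ring
      · rw [h1 x h0]; ring
    have h3 : Dv Q (fun u => win hf u i0) β =
        ∑ u, Q u * (- log (β (win hf u i0))) - H Q (fun u => win hf u i0) :=
      Dv_eq hQ _ _ fun u hu => hsβ u hu _
    have h4 : H Q (fun u => win hf u i0) = g Q 1 := H_letter hE (emb hf i0)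
    have h5 : Dv Q (fun u => win hf u i0) β ≤ D0 / p := by
      rw [le_div_iff₀ hp0]
      have := sum_Dv_letter hE β (emb hf i0)
      have h6 : Dv Q (fun u => win hf u i0) β = Dv Q (fun u => u (emb hf i0)) β := rfl
      rw [h6]
      linarith
    rw [h2, Hc_letter_past hE hf i0]
    have h6 : g Q (f + 1) - g Q f = dl Q f := rfl
    rw [dl_zero hQ] at hf2
    rw [h6]
    have h7 : 3 * D0 / p = D0 / p + 2 * D0 / p := by ring
    rw [h7]
    linarith
  have hf1' : ∀ x ∈ s, 0 < Pr Q Pa x → 0 ≤ f1 x := fun x _ hx => Hc_nonneg (hQx x hx) _ _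
  have hf2' : ∀ x ∈ s, 0 < Pr Q Pa x → 0 ≤ f2 x := fun x _ hx => TC_nonneg (hQx x hx) (hEx x)
  have hf3' : ∀ x ∈ s, 0 < Pr Q Pa x → 0 ≤ f3 x := fun x _ hx =>
    Dv_nonneg (hQx x hx) _ _ (fun v hv => pw_pos hβ (hsx x hx v hv) i0) hβ.nonneg hβ.sum.le
  obtain ⟨x, -, hx, e1, e2, e3⟩ := markov3 s (fun x => Pr Q Pa x) f1 f2 f3
    (fun x _ => Pr_nonneg hQ Pa x) (sum_Pr hQ Pa) hf1' hf2' hf3'
    (c1 := 1 + 1 / U) (c2 := 4 * (U + 1)) (c3 := 4 * (U + 1)) (by positivity) (by positivity)
    (by positivity) hB1 hB2 hB3 (by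
      have h1 : 1 / (1 + 1 / U) = 1 - 1 / (U + 1) := by field_simp; ring
      have h2 : 1 / (4 * (U + 1)) = (1 / 4) * (1 / (U + 1)) := by field_simp
      have h3 : 0 < 1 / (U + 1) := by positivity
      rw [h1, h2]
      linarith)
  refine ⟨Qx x, hQx x hx, hEx x, hsx x hx, e1, e2.trans ?_, fun i => ?_⟩
  · have h1 : 64 * U * D0 * (w : ℝ) ^ 2 / p ^ 2 = (64 * U) * (D0 * w ^ 2 / p ^ 2) := by ring
    have h2 : 4 * (U + 1) * (8 * D0 * (w : ℝ) ^ 2 / p ^ 2) =
        (32 * (U + 1)) * (D0 * w ^ 2 / p ^ 2) := by ring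
    rw [h1, h2]
    refine mul_le_mul_of_nonneg_right (by linarith) (by positivity)
  · rw [Dv_letter (hEx x) β i i0]
    refine e3.trans ?_
    have h1 : 64 * U * D0 / p = (64 * U) * (D0 / p) := by ring
    have h2 : 4 * (U + 1) * (3 * D0 / p) = (12 * (U + 1)) * (D0 / p) := by ring
    rw [h1, h2]
    refine mul_le_mul_of_nonneg_right (by linarith) (by positivity)

end Vale.Agent.P091.AD.H279
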