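import Vale.Agent.P091.AD.H279.Push

/-!
# P091, block AD, row AD-6 (helper279): entropies of an exchangeable law on words
-/

set_option autoImplicit false

open Finset Real
open Vale.Agent.P065.Ent

noncomputable section

namespace Vale.Agent.P091.AD.H279

/-- a stronger form of the monotonicity in the first variable -/
lemma Hc_mono_left' {Ω α β γ : Type*} [Fintype Ω] {μ : Ω → ℝ} (hμ : IsProb μ) {X : Ω → α}
    {Y : Ω → β} {W : Ω → γ} (h : Det (fun ω => (X ω, Y ω)) W) : Hc μ W Y ≤ Hc μ X Y := by
  unfold Hc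
  have := H_mono hμ (h.pair (det_snd X Y))
  linarith

section rs

variable {p : ℕ} {L : Type*}

/-- restriction of a word to a set of positions -/
def rs (S : Finset (Fin p)) (u : Fin p → L) : S → L := fun i => u i

lemma rs_apply {S : Finset (Fin p)} {u v : Fin p → L} (h : rs S u = rs S v) {i : Fin p}
    (hi : i ∈ S) : u i = v i := congrFun h ⟨i, hi⟩

lemma rs_ext {S : Finset (Fin p)} {u v : Fin p → L} (h : ∀ i ∈ S, u i = v i) :
    rs S u = rs S v := funext fun i => h i i.2

/-- permutation of the positions -/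
def wperm (σ : Equiv.Perm (Fin p)) : Equiv.Perm (Fin p → L) where
  toFun u := fun i => u (σ i)
  invFun u := fun i => u (σ.symm i)
  left_inv u := by funext i; simp
  right_inv u := by funext i; simp

variable [Fintype L]

/-- the entropy of the letters in `S` -/
def gE (Q : (Fin p → L) → ℝ) (S : Finset (Fin p)) : ℝ := H Q (rs S)

/-- the entropy of the first `k` letters -/
def g (Q : (Fin p → L) → ℝ) (k : ℕ) : ℝ := gE Q (first p k)

variable {Q : (Fin p → L) → ℝ}

lemma H_exch {α : Type*} (hE : Exch Q) (σ : Equiv.Perm (Fin p)) (X : (Fin p → L) → α) :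
    H Q (fun u => X (fun i => u (σ i))) = H Q X := H_perm (wperm σ) (hE σ) X

lemma gE_card (hE : Exch Q) {S T : Finset (Fin p)} (h : S.card = T.card) : gE Q S = gE Q T := by
  classical
  let e : {x // x ∈ S} ≃ {x // x ∈ T} := Finset.equivOfCardEq h
  have he : ∀ i (hi : i ∈ S), e.extendSubtype i = e ⟨i, hi⟩ := fun i hi =>
    Equiv.extendSubtype_apply_of_mem e i hi
  unfold gE
  rw [← H_exch hE e.extendSubtype (rs S)]
  refine H_congr ?_ ?_
  · intro u v huv
    refine rs_ext fun j hj => ?_
    have h1 := rs_apply huv (e.symm ⟨j, hj⟩).2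
    rw [he _ (e.symm ⟨j, hj⟩).2] at h1
    simpa using h1
  · intro u v huv
    refine rs_ext fun i hi => ?_
    rw [he i hi]
    exact rs_apply huv (e ⟨i, hi⟩).2

omit [Fintype L] in
lemma card_first {n k : ℕ} (h : k ≤ n) : (first n k).card = k := by
  have h1 : first n k = univ.map (Fin.castLEEmb h) := by
    ext i
    simp only [first, mem_filter, mem_univ, true_and, mem_map, Fin.castLEEmb_apply]
    constructor
    · intro hi
      exact ⟨⟨i, hi⟩, rfl⟩
    · rintro ⟨j, rfl⟩
      exact j.2
  rw [h1, card_map, card_univ, Fintype.card_fin]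

lemma gE_eq (hE : Exch Q) (S : Finset (Fin p)) : gE Q S = g Q S.card := by
  have h : S.card ≤ p := by simpa using card_le_univ S
  exact gE_card hE (card_first h).symm

lemma g_zero (hQ : IsProb Q) : g Q 0 = 0 := by
  have h1 : Det (fun _ : Fin p → L => ()) (rs (L := L) (first p 0)) := by
    intro u v _
    refine rs_ext fun i hi => ?_
    simp [first] at hi
  have h2 : Det (rs (L := L) (first p 0)) (fun _ : Fin p → L => ()) := fun _ _ _ => rfl
  exact (H_congr h2 h1).trans (H_of_const hQ ())

omit [Fintype L] in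
lemma det_rs {S T : Finset (Fin p)} (h : T ⊆ S) : Det (rs (L := L) S) (rs T) :=
  fun _ _ e => rs_ext fun _ hi => rs_apply e (h hi)

omit [Fintype L] in
lemma det_rs_union (S T : Finset (Fin p)) :
    Det (fun u : Fin p → L => (rs T u, rs S u)) (rs (T ∪ S)) := by
  intro u v h
  refine rs_ext fun i hi => ?_
  rcases mem_union.mp hi with hi | hi
  · exact rs_apply (Prod.mk.inj h).1 hi
  · exact rs_apply (Prod.mk.inj h).2 hi

/-- conditional entropy of the letters in `T` given the letters in `S` -/
lemma Hc_rs (S T : Finset (Fin p)) :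
    Hc Q (rs T) (rs S) = gE Q (T ∪ S) - gE Q S :=
  Hc_eq (X := rs (L := L) T) (Y := rs S) (X' := rs (T ∪ S)) (det_rs subset_union_left)
    (det_rs subset_union_right) (det_rs_union S T)

/-- concavity of `g` -/
lemma g_conc (hQ : IsProb Q) (hE : Exch Q) {k : ℕ} (hk : k + 2 ≤ p) :
    g Q (k + 2) + g Q k ≤ 2 * g Q (k + 1) := by
  let j : Fin p := ⟨k + 1, by omega⟩
  have h1 : Hc Q (rs {j}) (rs (first p (k + 1))) ≤ Hc Q (rs {j}) (rs (first p k)) := by
    refine Hc_anti hQ _ ?_
    intro u v h
    refine rs_ext fun i hi => rs_apply h ?_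
    simp only [first, mem_filter, mem_univ, true_and] at hi ⊢
    omega
  rw [Hc_rs, Hc_rs, gE_eq hE, gE_eq hE, gE_eq hE, gE_eq hE] at h1
  have c1 : (({j} : Finset (Fin p)) ∪ first p (k + 1)).card = k + 2 := by
    rw [card_union_of_disjoint, card_singleton, card_first (by omega)]
    · ring
    · rw [disjoint_singleton_left]
      simp [first, j]
  have c2 : (({j} : Finset (Fin p)) ∪ first p k).card = k + 1 := by
    rw [card_union_of_disjoint, card_singleton, card_first (by omega)]
    · ring
    · rw [disjoint_singleton_left]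
      simp [first, j]
  rw [c1, c2, card_first (by omega), card_first (by omega)] at h1
  linarith

/-- the increments of `g` -/
def dl (Q : (Fin p → L) → ℝ) (k : ℕ) : ℝ := g Q (k + 1) - g Q k

lemma dl_anti (hQ : IsProb Q) (hE : Exch Q) {j k : ℕ} (hjk : j ≤ k) (hk : k + 1 ≤ p) :
    dl Q k ≤ dl Q j := by
  induction k, hjk using Nat.le_induction with
  | base => exact le_rfl
  | succ n hn ih =>
    refine le_trans ?_ (ih (by omega))
    have := g_conc hQ hE (k := n) (by omega)
    unfold dl
    rw [show n + 1 + 1 = n + 2 from rfl]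
    linarith

lemma g_add (Q : (Fin p → L) → ℝ) (f w : ℕ) :
    g Q (f + w) - g Q f = ∑ i ∈ range w, dl Q (f + i) := by
  induction w with
  | zero => simp
  | succ n ih =>
    rw [sum_range_succ, ← ih]
    unfold dl
    rw [show f + (n + 1) = f + n + 1 from rfl]
    ring

/-- `g (f + w) - g f ≤ w * dl f` -/
lemma g_add_le (hQ : IsProb Q) (hE : Exch Q) {f w : ℕ} (h : f + w ≤ p) :
    g Q (f + w) - g Q f ≤ w * dl Q f := by
  rw [g_add]
  calc ∑ i ∈ range w, dl Q (f + i) ≤ ∑ i ∈ range w, dl Q f := by
        refine sum_le_sum fun i hi => ?_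
        rw [mem_range] at hi
        exact dl_anti hQ hE (by omega) (by omega)
    _ = w * dl Q f := by rw [sum_const, card_range, nsmul_eq_mul]

/-- `w * dl (f + w) ≤ g (f + w) - g f` -/
lemma g_add_ge (hQ : IsProb Q) (hE : Exch Q) {f w : ℕ} (h : f + w + 1 ≤ p) :
    w * dl Q (f + w) ≤ g Q (f + w) - g Q f := by
  rw [g_add]
  calc (w : ℝ) * dl Q (f + w) = ∑ i ∈ range w, dl Q (f + w) := by
        rw [sum_const, card_range, nsmul_eq_mul]
    _ ≤ ∑ i ∈ range w, dl Q (f + i) := by
        refine sum_le_sum fun i hi => ?_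
        rw [mem_range] at hi
        exact dl_anti hQ hE (by omega) (by omega)

lemma H_letter (hE : Exch Q) (i : Fin p) : H Q (fun u => u i) = g Q 1 := by
  have h1 : H Q (fun u => u i) = gE Q {i} := by
    unfold gE
    refine H_congr ?_ ?_
    · intro u v h
      refine rs_ext fun j hj => ?_
      rw [mem_singleton] at hj
      rw [hj]; exact h
    · intro u v h
      exact rs_apply h (mem_singleton_self i)
  rw [h1, gE_eq hE, card_singleton]

lemma H_word (Q : (Fin p → L) → ℝ) : H Q (fun u => u) = g Q p := by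
  unfold g gE
  refine H_congr ?_ ?_
  · intro u v h
    exact rs_ext fun i _ => congrFun h i
  · intro u v h
    funext i
    exact rs_apply h (by simp [first])

lemma TC_eq (hE : Exch Q) : TC Q = p * g Q 1 - g Q p := by
  unfold TC
  rw [H_word, sum_congr rfl fun i _ => H_letter hE i, sum_const, card_univ, Fintype.card_fin,
    nsmul_eq_mul]

lemma dl_zero (hQ : IsProb Q) : dl Q 0 = g Q 1 := by
  unfold dl
  rw [g_zero hQ, zero_add, sub_zero]

/-- `g k ≤ k g 1` -/
lemma g_le (hQ : IsProb Q) (hE : Exch Q) {k : ℕ} (hk : k ≤ p) : g Q k ≤ k * g Q 1 := by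
  have h := g_add_le hQ hE (f := 0) (w := k) (by omega)
  rw [zero_add, g_zero hQ, dl_zero hQ, sub_zero] at h
  exact h

lemma TC_nonneg (hQ : IsProb Q) (hE : Exch Q) : 0 ≤ TC Q := by
  rw [TC_eq hE]
  have := g_le hQ hE (le_refl p)
  linarith

/-- a lower bound of the total correlation -/
lemma TC_ge (hQ : IsProb Q) (hE : Exch Q) {k : ℕ} (hk : k + 1 ≤ p) :
    ((p : ℝ) - k) * (dl Q 0 - dl Q k) ≤ TC Q := by
  rw [TC_eq hE]
  have h1 := g_le hQ hE (k := k) (by omega)
  have h2 := g_add_le hQ hE (f := k) (w := p - k) (by omega)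
  rw [show k + (p - k) = p by omega] at h2
  rw [dl_zero hQ]
  have h3 : ((p - k : ℕ) : ℝ) = p - k := by
    rw [Nat.cast_sub (by omega)]
  rw [h3] at h2
  nlinarith

end rs

end Vale.Agent.P091.AD.H279
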