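import Vale.Agent.P091.AD.Base

/-!
# P091, block AD, row AD-6 (helper279): push-forwards, restrictions of words, exchangeability
-/

set_option autoImplicit false

open Finset Real
open Vale.Agent.P065.Ent

noncomputable section

namespace Vale.Agent.P091.AD.H279

/-! ## The law of a variable as a weight -/

section push

variable {Ω Ω' α β : Type*} [Fintype Ω] [Fintype Ω']

lemma sum_push (μ : Ω → ℝ) (W : Ω → Ω') (f : Ω' → ℝ) :
    ∑ v, Pr μ W v * f v = ∑ ω, μ ω * f (W ω) := by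
  classical
  unfold Pr
  simp_rw [sum_mul, ite_mul, zero_mul]
  rw [sum_comm]
  refine sum_congr rfl fun ω _ => ?_
  rw [sum_ite_eq]
  simp

lemma push_isProb {μ : Ω → ℝ} (hμ : IsProb μ) (W : Ω → Ω') : IsProb (Pr μ W) := by
  refine ⟨fun v => Pr_nonneg hμ W v, ?_⟩
  have h := sum_push μ W (fun _ => 1)
  simp only [mul_one] at h
  rw [h, hμ.sum]

lemma Pr_push (μ : Ω → ℝ) (W : Ω → Ω') (X : Ω' → α) (x : α) :
    Pr (Pr μ W) X x = Pr μ (fun ω => X (W ω)) x := by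
  classical
  have h := sum_push μ W (fun v => if X v = x then 1 else 0)
  simp only [mul_ite, mul_one, mul_zero] at h
  exact h

lemma H_push (μ : Ω → ℝ) (W : Ω → Ω') (X : Ω' → α) :
    H (Pr μ W) X = H μ (fun ω => X (W ω)) := by
  unfold H
  simp_rw [Pr_push]
  exact sum_push μ W fun v => - log (Pr μ (fun ω => X (W ω)) (X v))

lemma Hc_push (μ : Ω → ℝ) (W : Ω → Ω') (X : Ω' → α) (Y : Ω' → β) :
    Hc (Pr μ W) X Y = Hc μ (fun ω => X (W ω)) (fun ω => Y (W ω)) := by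
  unfold Hc
  rw [H_push, H_push]

lemma Dv_push (μ : Ω → ℝ) (W : Ω → Ω') (X : Ω' → α) (b : α → ℝ) :
    Dv (Pr μ W) X b = Dv μ (fun ω => X (W ω)) b := by
  unfold Dv
  simp_rw [Pr_push]
  exact sum_push μ W fun v => log (Pr μ (fun ω => X (W ω)) (X v) / b (X v))

/-- an element of positive probability is attained on the support -/
lemma exists_of_Pr_pos {μ : Ω → ℝ} (hμ : IsProb μ) (X : Ω → α) {x : α} (h : 0 < Pr μ X x) :
    ∃ ω, 0 < μ ω ∧ X ω = x := by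
  classical
  by_contra hne
  push Not at hne
  refine h.ne' ?_
  unfold Pr
  refine sum_eq_zero fun ω _ => ?_
  split_ifs with hx
  · rcases (hμ.nonneg ω).eq_or_lt with h0 | h0
    · exact h0.symm
    · exact absurd hx (hne ω h0)
  · rfl

/-- `D (law of X || b) = E (- log b) - H (X)` -/
lemma Dv_eq {μ : Ω → ℝ} (hμ : IsProb μ) (X : Ω → α) (b : α → ℝ)
    (hb : ∀ ω, 0 < μ ω → 0 < b (X ω)) :
    Dv μ X b = ∑ ω, μ ω * (- log (b (X ω))) - H μ X := by
  unfold Dv H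
  rw [← sum_sub_distrib]
  refine sum_congr rfl fun ω _ => ?_
  rcases (hμ.nonneg ω).eq_or_lt with h0 | h0
  · rw [← h0]; ring
  · rw [log_div (Pr_pos hμ X h0).ne' (hb ω h0).ne']; ring

/-- Gibbs inequality -/
lemma Dv_nonneg {μ : Ω → ℝ} (hμ : IsProb μ) [Fintype α] (X : Ω → α) (b : α → ℝ)
    (hb : ∀ ω, 0 < μ ω → 0 < b (X ω)) (hb0 : ∀ x, 0 ≤ b x) (hb1 : ∑ x, b x ≤ 1) :
    0 ≤ Dv μ X b := by
  classical
  have h1 : ∀ ω, μ ω * (1 - b (X ω) / Pr μ X (X ω)) ≤ μ ω * log (Pr μ X (X ω) / b (X ω)) := by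
    intro ω
    rcases (hμ.nonneg ω).eq_or_lt with h0 | h0
    · rw [← h0, zero_mul, zero_mul]
    · refine mul_le_mul_of_nonneg_left ?_ h0.le
      have hP := Pr_pos hμ X h0
      have hB := hb ω h0
      have h2 := log_le_sub_one_of_pos (div_pos hB hP)
      have h3 : log (Pr μ X (X ω) / b (X ω)) = - log (b (X ω) / Pr μ X (X ω)) := by
        rw [← log_inv, inv_div]
      rw [h3]
      linarith
  have h2 : ∑ ω, μ ω * (1 - b (X ω) / Pr μ X (X ω)) =
      ∑ x ∈ univ.image X, Pr μ X x * (1 - b x / Pr μ X x) :=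
    sum_fiber μ X fun x => 1 - b x / Pr μ X x
  have h3 : ∑ x ∈ univ.image X, Pr μ X x * (1 - b x / Pr μ X x) ≥
      ∑ x ∈ univ.image X, (Pr μ X x - b x) := by
    refine sum_le_sum fun x _ => ?_
    rcases (Pr_nonneg hμ X x).eq_or_lt with h0 | h0
    · rw [← h0, zero_mul]
      have := hb0 x
      linarith
    · rw [mul_sub, mul_one, mul_div_cancel₀ _ h0.ne']
  have h4 : ∑ x ∈ univ.image X, b x ≤ 1 :=
    (sum_le_univ_sum_of_nonneg hb0).trans hb1
  have h5 := sum_Pr hμ X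
  have h6 : ∑ x ∈ univ.image X, (Pr μ X x - b x) ≥ 0 := by
    rw [sum_sub_distrib, h5]
    linarith
  have h7 := sum_le_sum (s := univ) fun ω _ => h1 ω
  unfold Dv
  linarith

/-- a law invariant under a permutation -/
lemma Pr_perm {μ : Ω → ℝ} (e : Equiv.Perm Ω) (he : ∀ ω, μ (e ω) = μ ω) (X : Ω → α) (x : α) :
    Pr μ (fun ω => X (e ω)) x = Pr μ X x := by
  classical
  unfold Pr
  rw [← Equiv.sum_comp e (fun ω => if X ω = x then μ ω else 0)]
  refine sum_congr rfl fun ω _ => ?_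
  rw [he]

lemma H_perm {μ : Ω → ℝ} (e : Equiv.Perm Ω) (he : ∀ ω, μ (e ω) = μ ω) (X : Ω → α) :
    H μ (fun ω => X (e ω)) = H μ X := by
  unfold H
  rw [← Equiv.sum_comp e (fun ω => μ ω * (- log (Pr μ X (X ω))))]
  refine sum_congr rfl fun ω _ => ?_
  rw [he, Pr_perm e he]

lemma Dv_perm {μ : Ω → ℝ} (e : Equiv.Perm Ω) (he : ∀ ω, μ (e ω) = μ ω) (X : Ω → α)
    (b : α → ℝ) : Dv μ (fun ω => X (e ω)) b = Dv μ X b := by
  unfold Dv
  rw [← Equiv.sum_comp e (fun ω => μ ω * log (Pr μ X (X ω) / b (X ω)))]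
  refine sum_congr rfl fun ω _ => ?_
  rw [he, Pr_perm e he]

/-- Markov's inequality for weights on a finset -/
lemma markov {ι : Type*} (s : Finset ι) (a f : ι → ℝ) (ha : ∀ x ∈ s, 0 ≤ a x)
    (hf : ∀ x ∈ s, 0 < a x → 0 ≤ f x) {B c : ℝ} (hc : 0 < c) (hB : ∑ x ∈ s, a x * f x ≤ B)
    [DecidablePred fun x => 0 < a x ∧ c * B < f x] :
    ∑ x ∈ s with 0 < a x ∧ c * B < f x, a x ≤ 1 / c := by
  have h0 : ∀ x ∈ s, 0 ≤ a x * f x := by
    intro x hx
    rcases (ha x hx).eq_or_lt with h | h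
    · rw [← h, zero_mul]
    · exact mul_nonneg h.le (hf x hx h)
  have hB0 : 0 ≤ B := (sum_nonneg h0).trans hB
  have h1 : ∑ x ∈ s with 0 < a x ∧ c * B < f x, a x * f x ≤ B :=
    (sum_le_sum_of_subset_of_nonneg (filter_subset _ _) fun x hx _ => h0 x hx).trans hB
  rcases hB0.eq_or_lt with hB1 | hB1
  · have h2 : ∀ x ∈ s.filter fun x => 0 < a x ∧ c * B < f x, a x = 0 := by
      intro x hx
      exfalso
      rw [mem_filter] at hx
      have h3 : a x * f x ≤ 0 := by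
        rw [hB1]
        exact (single_le_sum h0 hx.1).trans hB
      have h4 : 0 < f x := by
        have := hx.2.2
        rw [← hB1, mul_zero] at this
        exact this
      exact absurd (mul_pos hx.2.1 h4) (not_lt.mpr h3)
    rw [sum_eq_zero h2]
    positivity
  · have h2 : (c * B) * ∑ x ∈ s with 0 < a x ∧ c * B < f x, a x ≤
        ∑ x ∈ s with 0 < a x ∧ c * B < f x, a x * f x := by
      rw [mul_sum]
      refine sum_le_sum fun x hx => ?_
      rw [mem_filter] at hx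
      rw [mul_comm]
      exact mul_le_mul_of_nonneg_left hx.2.2.le hx.2.1.le
    rw [le_div_iff₀ hc]
    have h3 := h2.trans h1
    have h4 : (c * ∑ x ∈ s with 0 < a x ∧ c * B < f x, a x) * B ≤ 1 * B := by
      calc _ = (c * B) * ∑ x ∈ s with 0 < a x ∧ c * B < f x, a x := by ring
        _ ≤ 1 * B := by rw [one_mul]; exact h3
    have h5 := le_of_mul_le_mul_right h4 hB1
    linarith

/-- a simultaneous choice from three averages -/
lemma markov3 {ι : Type*} (s : Finset ι) (a f1 f2 f3 : ι → ℝ) (ha : ∀ x ∈ s, 0 ≤ a x)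
    (hs : ∑ x ∈ s, a x = 1)
    (h1 : ∀ x ∈ s, 0 < a x → 0 ≤ f1 x) (h2 : ∀ x ∈ s, 0 < a x → 0 ≤ f2 x)
    (h3 : ∀ x ∈ s, 0 < a x → 0 ≤ f3 x) {B1 B2 B3 c1 c2 c3 : ℝ} (hc1 : 0 < c1) (hc2 : 0 < c2)
    (hc3 : 0 < c3) (hB1 : ∑ x ∈ s, a x * f1 x ≤ B1) (hB2 : ∑ x ∈ s, a x * f2 x ≤ B2)
    (hB3 : ∑ x ∈ s, a x * f3 x ≤ B3) (hc : 1 / c1 + 1 / c2 + 1 / c3 < 1) :
    ∃ x ∈ s, 0 < a x ∧ f1 x ≤ c1 * B1 ∧ f2 x ≤ c2 * B2 ∧ f3 x ≤ c3 * B3 := by
  classical
  by_contra hne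
  push Not at hne
  have e1 := markov s a f1 ha h1 hc1 hB1
  have e2 := markov s a f2 ha h2 hc2 hB2
  have e3 := markov s a f3 ha h3 hc3 hB3
  have h4 : ∑ x ∈ s, a x ≤ ∑ x ∈ s with 0 < a x ∧ c1 * B1 < f1 x, a x +
      ∑ x ∈ s with 0 < a x ∧ c2 * B2 < f2 x, a x +
      ∑ x ∈ s with 0 < a x ∧ c3 * B3 < f3 x, a x := by
    rw [sum_filter, sum_filter, sum_filter, ← sum_add_distrib, ← sum_add_distrib]
    refine sum_le_sum fun x hx => ?_
    have p1 : 0 ≤ if 0 < a x ∧ c1 * B1 < f1 x then a x else 0 := by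
      split_ifs; exacts [ha x hx, le_rfl]
    have p2 : 0 ≤ if 0 < a x ∧ c2 * B2 < f2 x then a x else 0 := by
      split_ifs; exacts [ha x hx, le_rfl]
    have p3 : 0 ≤ if 0 < a x ∧ c3 * B3 < f3 x then a x else 0 := by
      split_ifs; exacts [ha x hx, le_rfl]
    rcases (ha x hx).eq_or_lt with h0 | h0
    · rw [← h0] at p1 p2 p3 ⊢
      linarith
    · by_cases q1 : c1 * B1 < f1 x
      · rw [if_pos ⟨h0, q1⟩]; linarith
      · by_cases q2 : c2 * B2 < f2 x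
        · rw [if_pos (⟨h0, q2⟩ : 0 < a x ∧ c2 * B2 < f2 x)]; linarith
        · have q3 := hne x hx h0 (not_lt.mp q1) (not_lt.mp q2)
          rw [if_pos (⟨h0, q3⟩ : 0 < a x ∧ c3 * B3 < f3 x)]; linarith
  linarith

end push

end Vale.Agent.P091.AD.H279
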